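import Vale.Agent.P032.S5.H767.Raw

/-!
# P032: special times of a unit pair of centres, and the directions at a point of a circle

`Off p q c`: the unit neighbours `q`, `c` of `p` are not on a line with `p`; these are the side
conditions of `partner_line`, `lemmaX`, `lemmaB` (conclusion `c = q ∨ c + q = 2 * p`).

Directions: every unit neighbour of `p` is `pt p t`; `Off p (pt p s) (pt p t)` iff `s - t` is not a
multiple of `3`.  Seen from `p = pt z u` (with `v = pt z u₀`): the centre `z` is in direction `u + 3`,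
the next point of the hexagon in direction `u + 2`, the previous one in direction `u + 4`, the parallel
point `pt v u` in direction `u₀`; seen from `p = pt v u` the parallel point `pt z u` is in direction
`u₀ + 3`.

At the special time `u = u₀` all points are in the lattice `lp z u₀ m n`.
-/

open Set Filter Topology Metric

noncomputable section

namespace Vale.Agent.P032.S5.H977

open Vale.Agent.P032.Six Vale.Agent.P032.S5.H767

/-- `p` is not on a line with its unit neighbours `q`, `c` -/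
def Off (p q c : ℂ) : Prop := c ≠ q ∧ c + q ≠ 2 * p

theorem Off.symm {p q c : ℂ} (h : Off p q c) : Off p c q :=
  ⟨fun h1 => h.1 h1.symm, fun h1 => h.2 (by rw [add_comm]; exact h1)⟩

/-- use with `partner_line`, `lemmaX` (`u = q`, `v = c`) -/
theorem Off.elim {p q c : ℂ} (h : Off p q c) (h1 : c = q ∨ c + q = 2 * p) : False :=
  h1.elim h.1 h.2

theorem pt_eq_iff (x : ℂ) (s t : ℝ) : pt x s = pt x t ↔ ∃ n : ℤ, s = t + 6 * n := by
  constructor
  · intro h
    have h1 : cis (s * (Real.pi / 3)) = cis (t * (Real.pi / 3)) := by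
      unfold pt at h; exact add_left_cancel h
    unfold cis at h1
    obtain ⟨n, hn⟩ := Complex.exp_eq_exp_iff_exists_int.1 h1
    refine ⟨n, ?_⟩
    have h2 := congrArg Complex.im hn
    simp at h2
    have h4 : s * (Real.pi / 3) = (t + 6 * n) * (Real.pi / 3) := by rw [h2]; ring
    exact mul_right_cancel₀ (show Real.pi / 3 ≠ 0 by positivity) h4
  · rintro ⟨n, rfl⟩
    unfold pt cis
    congr 1
    rw [Complex.exp_eq_exp_iff_exists_int]
    exact ⟨n, by push_cast; ring⟩

/-- the antipode -/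
theorem pt_anti (x : ℂ) (s : ℝ) : pt x (s + 3) + pt x s = 2 * x := by
  rw [pt_three]; ring

/-- **the side conditions in terms of directions** -/
theorem off_iff (x : ℂ) (s t : ℝ) : Off x (pt x s) (pt x t) ↔ ∀ n : ℤ, s ≠ t + 3 * n := by
  constructor
  · rintro ⟨h1, h2⟩ n hn
    rcases Int.even_or_odd' n with ⟨m, hm | hm⟩
    · apply h1
      rw [eq_comm, pt_eq_iff]
      exact ⟨m, by rw [hn, hm]; push_cast; ring⟩
    · apply h2
      have h3 : pt x s = pt x (t + 3) := by
        rw [pt_eq_iff]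
        exact ⟨m, by rw [hn, hm]; push_cast; ring⟩
      rw [h3, add_comm]
      exact pt_anti x t
  · intro h
    constructor
    · intro h1
      obtain ⟨n, hn⟩ := (pt_eq_iff x s t).1 h1.symm
      exact h (2 * n) (by rw [hn]; push_cast; ring)
    · intro h1
      have h2 : pt x s = pt x (t + 3) := by
        have := pt_anti x t
        linear_combination h1 - this
      obtain ⟨n, hn⟩ := (pt_eq_iff x s (t + 3)).1 h2
      exact h (2 * n + 1) (by rw [hn]; push_cast; ring)

/-- two directions with difference strictly between `3 n` and `3 n + 3` -/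
theorem off_of_lt {x : ℂ} {s t : ℝ} (m : ℤ) (h1 : t + 3 * m < s) (h2 : s < t + 3 * m + 3) :
    Off x (pt x s) (pt x t) := by
  rw [off_iff]
  intro n hn
  have h3 : (m : ℝ) < n := by nlinarith
  have h4 : (n : ℝ) < m + 1 := by nlinarith
  have h5 : m < n := by exact_mod_cast h3
  have h6 : n < m + 1 := by exact_mod_cast h4
  omega

/-! ### directions seen from a point of a circle -/

theorem pt_comm (z : ℂ) (s t : ℝ) : pt (pt z s) t = pt (pt z t) s := by
  unfold pt; ring

theorem pt_centre (z : ℂ) (u : ℝ) : pt (pt z u) (u + 3) = z := by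
  rw [pt_three]; unfold pt; ring

theorem pt_centre' (z : ℂ) (u : ℝ) : pt (pt z (u + 3)) u = z := by
  rw [pt_comm]; exact pt_centre z u

theorem pt_next (z : ℂ) (u : ℝ) : pt (pt z u) (u + 2) = pt z (u + 1) := by
  have h1 := pt_sum z u
  have h2 : pt (pt z u) (u + 2) = pt z u + pt z (u + 2) - z := by unfold pt; ring
  rw [h2, h1]; ring

theorem pt_prev (z : ℂ) (u : ℝ) : pt (pt z u) (u + 4) = pt z (u - 1) := by
  have h1 := pt_sum z (u - 1)
  have h2 : pt (pt z u) (u + 4) = pt z u + pt z (u + 4) - z := by unfold pt; ring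
  have h3 : pt z (u + 4) = 2 * z - pt z (u + 1) := by
    rw [← pt_three]; congr 1; ring
  have e1 : u - 1 + 2 = u + 1 := by ring
  have e2 : u - 1 + 1 = u := by ring
  rw [e1, e2] at h1
  rw [h2, h3]
  linear_combination -h1

/-- the previous point is `pt z (u + 5)` -/
theorem pt_five (z : ℂ) (u : ℝ) : pt z (u + 5) = pt z (u - 1) := by
  have := pt_six z (u - 1)
  rw [← this]; congr 1; ring

theorem pt_prev' (z : ℂ) (u : ℝ) : pt (pt z u) (u + 4) = pt z (u + 5) := by
  rw [pt_five]; exact pt_prev z u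

/-- the parallel point, seen from the circle of `z` (`v = pt z u₀`) -/
theorem pt_par (z : ℂ) (u₀ u : ℝ) : pt (pt z u) u₀ = pt (pt z u₀) u := pt_comm z u u₀

/-- the parallel point, seen from the circle of `v = pt z u₀` -/
theorem pt_par' (z : ℂ) (u₀ u : ℝ) : pt (pt (pt z u₀) u) (u₀ + 3) = pt z u := by
  rw [pt_comm, pt_centre]

/-! ### the side conditions at all times -/

theorem off_next (z : ℂ) (u : ℝ) : Off (pt z u) (pt z (u + 1)) z := by
  have h := (off_of_lt (x := pt z u) (s := u + 2) (t := u + 3) (-1) (by push_cast; linarith)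
    (by push_cast; linarith))
  rwa [pt_next, pt_centre] at h

theorem off_prev (z : ℂ) (u : ℝ) : Off (pt z (u + 1)) (pt z u) z := by
  have h := (off_of_lt (x := pt z (u + 1)) (s := u + 1 + 4) (t := u + 1 + 3) 0
    (by push_cast; linarith) (by push_cast; linarith))
  rwa [pt_prev, pt_centre, add_sub_cancel_right] at h

theorem off_prev' (z : ℂ) (u : ℝ) : Off (pt z u) (pt z (u + 5)) z := by
  have h := (off_of_lt (x := pt z u) (s := u + 4) (t := u + 3) 0
    (by push_cast; linarith) (by push_cast; linarith))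
  rwa [pt_prev', pt_centre] at h

theorem off_next_prev (z : ℂ) (u : ℝ) : Off (pt z u) (pt z (u + 1)) (pt z (u + 5)) := by
  have h := (off_of_lt (x := pt z u) (s := u + 2) (t := u + 4) (-1)
    (by push_cast; linarith) (by push_cast; linarith))
  rwa [pt_next, pt_prev'] at h

/-- parallel points against the centre: all times except `u₀`, `u₀ + 3` mod `6` -/
theorem off_par (z : ℂ) {u₀ u : ℝ} (hu : ∀ n : ℤ, u ≠ u₀ + 3 * n) :
    Off (pt z u) (pt (pt z u₀) u) z ∧ Off (pt (pt z u₀) u) (pt z u) (pt z u₀) := by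
  constructor
  · have h := (off_iff (pt z u) u₀ (u + 3)).2 fun n hn => hu (-n - 1) (by push_cast; linarith)
    rwa [pt_par, pt_centre] at h
  · have h := (off_iff (pt (pt z u₀) u) (u₀ + 3) (u + 3)).2
      fun n hn => hu (-n) (by push_cast; linarith)
    rwa [pt_par', pt_centre] at h

/-- parallel points against the next point of the circle: all times except `u₀ + 1`, `u₀ + 4` -/
theorem off_par_next (z : ℂ) {u₀ u : ℝ} (hu : ∀ n : ℤ, u ≠ u₀ + 1 + 3 * n) :
    Off (pt z u) (pt (pt z u₀) u) (pt z (u + 1)) ∧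
      Off (pt (pt z u₀) u) (pt z u) (pt (pt z u₀) (u + 1)) := by
  constructor
  · have h := (off_iff (pt z u) u₀ (u + 2)).2 fun n hn => hu (-n - 1) (by push_cast; linarith)
    rwa [pt_par, pt_next] at h
  · have h := (off_iff (pt (pt z u₀) u) (u₀ + 3) (u + 2)).2
      fun n hn => hu (-n) (by push_cast; linarith)
    rwa [pt_par', pt_next] at h

/-- parallel points against the previous point: all times except `u₀ + 2`, `u₀ + 5` -/
theorem off_par_prev (z : ℂ) {u₀ u : ℝ} (hu : ∀ n : ℤ, u ≠ u₀ + 2 + 3 * n) :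
    Off (pt z u) (pt (pt z u₀) u) (pt z (u + 5)) ∧
      Off (pt (pt z u₀) u) (pt z u) (pt (pt z u₀) (u + 5)) := by
  constructor
  · have h := (off_iff (pt z u) u₀ (u + 4)).2 fun n hn => hu (-n - 2) (by push_cast; linarith)
    rwa [pt_par, pt_prev'] at h
  · have h := (off_iff (pt (pt z u₀) u) (u₀ + 3) (u + 4)).2
      fun n hn => hu (-n - 1) (by push_cast; linarith)
    rwa [pt_par', pt_prev'] at h

/-- distances one of the two families of edges -/
theorem dist_par (z : ℂ) (u₀ u : ℝ) : dist (pt z u) (pt (pt z u₀) u) = 1 := by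
  rw [← pt_par, dist_comm]; exact dist_pt _ _

/-! ### the special time -/

theorem sp_z (z : ℂ) (u₀ : ℝ) : pt (pt z u₀) (u₀ + 3) = z := pt_centre z u₀

theorem sp_plus (z : ℂ) (u₀ : ℝ) : pt (pt z u₀) (u₀ + 2) = pt z (u₀ + 1) := pt_next z u₀

theorem sp_minus (z : ℂ) (u₀ : ℝ) : pt (pt z u₀) (u₀ + 4) = pt z (u₀ - 1) := pt_prev z u₀

theorem sp_minus' (z : ℂ) (u₀ : ℝ) : pt (pt z u₀) (u₀ + 4) = pt z (u₀ + 5) := pt_prev' z u₀

theorem sp_far (z : ℂ) (u₀ : ℝ) : pt z (u₀ + 3) = 2 * z - pt z u₀ := pt_three z u₀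

theorem sp_far' (z : ℂ) (u₀ : ℝ) : pt (pt z u₀) u₀ = 2 * pt z u₀ - z := by
  unfold pt; ring

/-- the number `ω = e^{i π / 3}` -/
def om : ℂ := ⟨1 / 2, √3 / 2⟩

theorem om_sq : om * om = om - 1 := by
  have h3 : √3 * √3 = 3 := Real.mul_self_sqrt (by norm_num)
  unfold om
  apply Complex.ext
  · simp only [Complex.mul_re, Complex.sub_re, Complex.one_re]
    nlinarith
  · simp only [Complex.mul_im, Complex.sub_im, Complex.one_im]
    ring

/-- the lattice of the unit pair -/
def lp (z : ℂ) (u₀ : ℝ) (p : ℤ × ℤ) : ℂ :=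
  z + cis (u₀ * (Real.pi / 3)) * (p.1 + p.2 * om)

theorem cis_ne (t : ℝ) : cis t ≠ 0 := by
  intro h; have := norm_cis t; rw [h, norm_zero] at this; exact zero_ne_one this

theorem lp_inj (z : ℂ) (u₀ : ℝ) : Function.Injective (lp z u₀) := by
  rintro ⟨m, n⟩ ⟨m', n'⟩ h
  unfold lp at h
  have h1 : ((m : ℂ) + n * om) = m' + n' * om :=
    mul_left_cancel₀ (cis_ne _) (add_left_cancel h)
  have h2 := congrArg Complex.im h1
  have h3 := congrArg Complex.re h1
  simp [om] at h2 h3
  obtain rfl : n = n' := h2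
  have h4 : (m : ℝ) = m' := by linarith
  have h5 : m = m' := by exact_mod_cast h4
  rw [h5]

/-- the six directions of the lattice -/
def dir : Fin 6 → ℤ × ℤ := ![(1, 0), (0, 1), (-1, 1), (-1, 0), (0, -1), (1, -1)]

theorem cis_pow (u₀ : ℝ) (k : Fin 6) : cis ((u₀ + (k.val : ℝ)) * (Real.pi / 3)) =
    cis (u₀ * (Real.pi / 3)) * ((dir k).1 + (dir k).2 * om) := by
  have step : ∀ t : ℝ, cis ((t + 1) * (Real.pi / 3)) = cis (t * (Real.pi / 3)) * om := by
    intro t
    have : (t + 1) * (Real.pi / 3) = t * (Real.pi / 3) + Real.pi / 3 := by ring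
    rw [this, cis_add, cis_third]; rfl
  have h0 := om_sq
  have s1 := step u₀
  have s2 := step (u₀ + 1)
  have s3 := step (u₀ + 1 + 1)
  have s4 := step (u₀ + 1 + 1 + 1)
  have s5 := step (u₀ + 1 + 1 + 1 + 1)
  rw [s1] at s2
  rw [s2] at s3
  rw [s3] at s4
  rw [s4] at s5
  have e2 : u₀ + 1 + 1 = u₀ + 2 := by ring
  have e3 : u₀ + 1 + 1 + 1 = u₀ + 3 := by ring
  have e4 : u₀ + 1 + 1 + 1 + 1 = u₀ + 4 := by ring
  have e5 : u₀ + 1 + 1 + 1 + 1 + 1 = u₀ + 5 := by ring
  rw [e2] at s2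
  rw [e3] at s3
  rw [e4] at s4
  rw [e5] at s5
  fin_cases k
  · simp [dir]
  · simp [dir, s1]
  · simp [dir, s2]
    linear_combination cis (u₀ * (Real.pi / 3)) * h0
  · simp [dir, s3]
    linear_combination cis (u₀ * (Real.pi / 3)) * (om + 1) * h0
  · simp [dir, s4]
    linear_combination cis (u₀ * (Real.pi / 3)) * (om * om + om) * h0
  · simp [dir, s5]
    linear_combination cis (u₀ * (Real.pi / 3)) * (om * om * om + om * om - 1) * h0

/-- **the unit neighbours in the lattice** -/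
theorem pt_lp (z : ℂ) (u₀ : ℝ) (p : ℤ × ℤ) (k : Fin 6) :
    pt (lp z u₀ p) (u₀ + (k.val : ℝ)) = lp z u₀ (p.1 + (dir k).1, p.2 + (dir k).2) := by
  unfold pt
  rw [cis_pow]
  unfold lp
  push_cast
  ring

theorem lp_zero (z : ℂ) (u₀ : ℝ) : lp z u₀ (0, 0) = z := by simp [lp]

theorem lp_one (z : ℂ) (u₀ : ℝ) : lp z u₀ (1, 0) = pt z u₀ := by
  have h := pt_lp z u₀ (0, 0) 0
  rw [lp_zero] at h
  simp [dir] at h
  exact h.symm

/-- the circle of `z` at the special time -/
theorem sp_pt_z (z : ℂ) (u₀ : ℝ) (k : Fin 6) : pt z (u₀ + (k.val : ℝ)) = lp z u₀ (dir k) := by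
  have h := pt_lp z u₀ (0, 0) k
  rw [lp_zero] at h
  simpa using h

/-- the circle of `v = pt z u₀` at the special time -/
theorem sp_pt_v (z : ℂ) (u₀ : ℝ) (k : Fin 6) :
    pt (pt z u₀) (u₀ + (k.val : ℝ)) = lp z u₀ (1 + (dir k).1, (dir k).2) := by
  have h := pt_lp z u₀ (1, 0) k
  rw [lp_one] at h
  simpa using h

/-- lattice form of the side conditions: a decidable statement -/
def OffL (p q c : ℤ × ℤ) : Prop := c ≠ q ∧ (c.1 + q.1, c.2 + q.2) ≠ (2 * p.1, 2 * p.2)

instance (p q c : ℤ × ℤ) : Decidable (OffL p q c) := by unfold OffL; infer_instance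

theorem off_lp (z : ℂ) (u₀ : ℝ) (p q c : ℤ × ℤ) :
    Off (lp z u₀ p) (lp z u₀ q) (lp z u₀ c) ↔ OffL p q c := by
  unfold Off OffL
  have h1 : lp z u₀ c = lp z u₀ q ↔ c = q := (lp_inj z u₀).eq_iff
  have h2 : lp z u₀ c + lp z u₀ q = 2 * lp z u₀ p ↔
      (c.1 + q.1, c.2 + q.2) = (2 * p.1, 2 * p.2) := by
    have h3 : lp z u₀ c + lp z u₀ q - z = lp z u₀ (c.1 + q.1, c.2 + q.2) := by
      unfold lp; push_cast; ring
    have h4 : 2 * lp z u₀ p - z = lp z u₀ (2 * p.1, 2 * p.2) := by
      unfold lp; push_cast; ring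
    rw [← (lp_inj z u₀).eq_iff, ← h3, ← h4]
    constructor
    · intro h; rw [h]
    · intro h; exact sub_left_injective h
  rw [ne_eq, ne_eq, h1, h2]

/-- **the ten points of the special time** -/
def ten : Fin 10 → ℤ × ℤ :=
  ![(0, 0), (1, 0), (0, 1), (1, -1), (-1, 1), (-1, 0), (0, -1), (2, 0), (1, 1), (2, -1)]

theorem ten_inj : Function.Injective ten := by decide

theorem ten_distinct (z : ℂ) (u₀ : ℝ) : Function.Injective fun i => lp z u₀ (ten i) :=
  (lp_inj z u₀).comp ten_inj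

/-- names of the ten points: `z, v, y₊, y₋, z₂, 2 z - v, z₄, 2 v - z, v₁, v₅` -/
theorem ten_names (z : ℂ) (u₀ : ℝ) :
    lp z u₀ (ten 0) = z ∧ lp z u₀ (ten 1) = pt z u₀ ∧
    lp z u₀ (ten 2) = pt z (u₀ + 1) ∧ lp z u₀ (ten 3) = pt z (u₀ + 5) ∧
    lp z u₀ (ten 4) = pt z (u₀ + 2) ∧ lp z u₀ (ten 5) = pt z (u₀ + 3) ∧
    lp z u₀ (ten 6) = pt z (u₀ + 4) ∧ lp z u₀ (ten 7) = pt (pt z u₀) u₀ ∧
    lp z u₀ (ten 8) = pt (pt z u₀) (u₀ + 1) ∧ lp z u₀ (ten 9) = pt (pt z u₀) (u₀ + 5) := by
  have hz := sp_pt_z z u₀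
  have hv := sp_pt_v z u₀
  refine ⟨lp_zero z u₀, lp_one z u₀, ?_, ?_, ?_, ?_, ?_, ?_, ?_, ?_⟩
  · have := hz 1; simp [dir] at this; simpa [ten] using this.symm
  · have := hz 5; simp [dir] at this; simpa [ten] using this.symm
  · have := hz 2; simp [dir] at this; simpa [ten] using this.symm
  · have := hz 3; simp [dir] at this; simpa [ten] using this.symm
  · have := hz 4; simp [dir] at this; simpa [ten] using this.symm
  · have := hv 0; simp [dir] at this; simpa [ten] using this.symm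
  · have := hv 1; simp [dir] at this; simpa [ten] using this.symm
  · have := hv 5; simp [dir] at this; simpa [ten] using this.symm

/-- the point at position `(k, s)`, `s = false`: circle of `z`, `s = true`: circle of `v` -/
def pos (s : Bool) (k : Fin 6) : ℤ × ℤ := ((if s then 1 else 0) + (dir k).1, (dir k).2)

theorem sp_pos (z : ℂ) (u₀ : ℝ) (s : Bool) (k : Fin 6) :
    lp z u₀ (pos s k) = pt (if s then pt z u₀ else z) (u₀ + (k.val : ℝ)) := by
  cases s
  · simp [pos, sp_pt_z]
  · simp [pos, sp_pt_v]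

/-- coincidences of the twelve positions: exactly `y₊` and `y₋` occur twice -/
theorem pos_eq_iff (s t : Bool) (k l : Fin 6) : pos s k = pos t l ↔
    (s = t ∧ k = l) ∨ (s = false ∧ t = true ∧ ((k = 1 ∧ l = 2) ∨ (k = 5 ∧ l = 4))) ∨
      (s = true ∧ t = false ∧ ((k = 2 ∧ l = 1) ∨ (k = 4 ∧ l = 5))) := by
  revert s t k l; decide

/-- positions which are a centre: `v` at `(0, z)`, `z` at `(3, v)` -/
theorem pos_centre (s : Bool) (k : Fin 6) :
    (pos s k = (0, 0) ↔ s = true ∧ k = 3) ∧ (pos s k = (1, 0) ↔ s = false ∧ k = 0) := by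
  revert s k; decide

/-- the parallel edge of position `k` at the special time is off the centres for `k ≠ 0, 3` -/
theorem par_off (k : Fin 6) (h0 : k ≠ 0) (h3 : k ≠ 3) :
    OffL (pos false k) (pos true k) (0, 0) ∧ OffL (pos true k) (pos false k) (1, 0) := by
  revert k; decide

/-- at `k = 0, 3` the parallel edge is on the line of the centres -/
theorem par_on : ¬ OffL (pos false 0) (pos true 0) (0, 0) ∧
    ¬ OffL (pos true 3) (pos false 3) (1, 0) ∧ pos false 0 = (1, 0) ∧ pos true 3 = (0, 0) := by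
  decide

/-- adjacency in the lattice -/
def AdjL (p q : ℤ × ℤ) : Prop := ∃ k : Fin 6, q = (p.1 + (dir k).1, p.2 + (dir k).2)

instance (p q : ℤ × ℤ) : Decidable (AdjL p q) := by unfold AdjL; infer_instance

theorem AdjL.dist {p q : ℤ × ℤ} (h : AdjL p q) (z : ℂ) (u₀ : ℝ) :
    dist (lp z u₀ p) (lp z u₀ q) = 1 := by
  obtain ⟨k, rfl⟩ := h
  rw [← pt_lp, dist_comm]
  exact dist_pt _ _

/-- **all unit edges among the ten points against both centres**: off, with two exceptions -/
theorem edge_off : ∀ i j : Fin 10, AdjL (ten i) (ten j) → ∀ s : Bool,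
    AdjL (ten i) (if s then (1, 0) else (0, 0)) → (if s then (1, 0) else (0, 0)) ≠ ten j →
    OffL (ten i) (ten j) (if s then (1, 0) else (0, 0)) ∨ (i = 1 ∧ j = 7 ∧ s = false) ∨
      (i = 0 ∧ j = 5 ∧ s = true) := by decide

/-- the unit neighbours of `y₊` and their lines: `z, v, z₂, v₁`; only `z₂, v₁` are on a line -/
theorem plus_off : OffL (0, 1) (0, 0) (1, 0) ∧ OffL (0, 1) (0, 0) (-1, 1) ∧
    OffL (0, 1) (0, 0) (1, 1) ∧ OffL (0, 1) (1, 0) (-1, 1) ∧ OffL (0, 1) (1, 0) (1, 1) ∧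
    ¬ OffL (0, 1) (-1, 1) (1, 1) := by decide

/-- the same for `y₋`: `z, v, z₄, v₅` -/
theorem minus_off : OffL (1, -1) (0, 0) (1, 0) ∧ OffL (1, -1) (0, 0) (0, -1) ∧
    OffL (1, -1) (0, 0) (2, -1) ∧ OffL (1, -1) (1, 0) (0, -1) ∧ OffL (1, -1) (1, 0) (2, -1) ∧
    ¬ OffL (1, -1) (0, -1) (2, -1) := by decide

end Vale.Agent.P032.S5.H977
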